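import Mathlib

/-!
# Weak limits along ultrafilters in reflexive spaces
-/

open Filter Topology Set

namespace Vale.Agent.P079

universe u v w

/-- A real normed space is reflexive if the canonical map to its double dual is onto. -/
def IsReflexive (X : Type u) [NormedAddCommGroup X] [NormedSpace ℝ X] : Prop :=
  Function.Surjective (NormedSpace.inclusionInDoubleDual ℝ X)

/-- `f` converges weakly to `x` along `l`. -/
def WLim {α : Type w} {X : Type u} [NormedAddCommGroup X] [NormedSpace ℝ X]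
    (l : Filter α) (f : α → X) (x : X) : Prop :=
  ∀ φ : StrongDual ℝ X, Tendsto (fun a => φ (f a)) l (𝓝 (φ x))

section basic

variable {α : Type w} {X : Type u} [NormedAddCommGroup X] [NormedSpace ℝ X]
variable {Y : Type v} [NormedAddCommGroup Y] [NormedSpace ℝ Y]

theorem exists_real_ulim (U : Ultrafilter α) (f : α → ℝ) (M : ℝ)
    (h : ∀ᶠ a in (U : Filter α), |f a| ≤ M) :
    ∃ l : ℝ, Tendsto f U (𝓝 l) := by
  have hc : IsCompact (Set.Icc (-M) M) := isCompact_Icc
  have hle : ((U.map f : Ultrafilter ℝ) : Filter ℝ) ≤ 𝓟 (Set.Icc (-M) M) := by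
    rw [Ultrafilter.coe_map, le_principal_iff, mem_map]
    filter_upwards [h] with a ha
    exact abs_le.mp ha
  obtain ⟨l, -, hl⟩ := hc.ultrafilter_le_nhds (U.map f) hle
  exact ⟨l, hl⟩

theorem WLim.exists (hX : IsReflexive X) (U : Ultrafilter α) (f : α → X) (M : ℝ)
    (h : ∀ᶠ a in (U : Filter α), ‖f a‖ ≤ M) :
    ∃ x : X, WLim (U : Filter α) f x := by
  have key : ∀ φ : StrongDual ℝ X, ∃ l : ℝ, Tendsto (fun a => φ (f a)) U (𝓝 l) := by
    intro φ
    apply exists_real_ulim U _ (‖φ‖ * M)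
    filter_upwards [h] with a ha
    calc |φ (f a)| = ‖φ (f a)‖ := rfl
      _ ≤ ‖φ‖ * ‖f a‖ := φ.le_opNorm _
      _ ≤ ‖φ‖ * M := by gcongr
  choose L hL using key
  let Λ : StrongDual ℝ X →ₗ[ℝ] ℝ :=
    { toFun := L
      map_add' := by
        intro φ ψ
        refine tendsto_nhds_unique (hL (φ + ψ)) ?_
        simpa using (hL φ).add (hL ψ)
      map_smul' := by
        intro c φ
        refine tendsto_nhds_unique (hL (c • φ)) ?_
        simpa using (hL φ).const_mul c }
  have hbound : ∀ φ : StrongDual ℝ X, ‖Λ φ‖ ≤ M * ‖φ‖ := by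
    intro φ
    have h1 : Tendsto (fun a => ‖φ (f a)‖) U (𝓝 ‖L φ‖) := (hL φ).norm
    refine le_of_tendsto h1 ?_
    filter_upwards [h] with a ha
    calc ‖φ (f a)‖ ≤ ‖φ‖ * ‖f a‖ := φ.le_opNorm _
      _ ≤ ‖φ‖ * M := by gcongr
      _ = M * ‖φ‖ := mul_comm _ _
  obtain ⟨x, hx⟩ := hX (Λ.mkContinuous M hbound)
  refine ⟨x, fun φ => ?_⟩
  have h2 : φ x = L φ := by
    have := congrArg (fun ξ => ξ φ) hx
    simpa [Λ] using this
  rw [h2]
  exact hL φ

theorem WLim.unique {l : Filter α} [l.NeBot] {f : α → X} {x y : X}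
    (hx : WLim l f x) (hy : WLim l f y) : x = y := by
  have h : ∀ φ : StrongDual ℝ X, φ x = φ y := fun φ => tendsto_nhds_unique (hx φ) (hy φ)
  exact (SeparatingDual.eq_iff_forall_dual_eq (R := ℝ)).mpr h

theorem WLim.const {l : Filter α} (x : X) : WLim l (fun _ => x) x := fun _ => tendsto_const_nhds

theorem WLim.add {l : Filter α} {f g : α → X} {x y : X} (hf : WLim l f x) (hg : WLim l g y) :
    WLim l (fun a => f a + g a) (x + y) := by
  intro φ
  simpa using (hf φ).add (hg φ)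

theorem WLim.sub {l : Filter α} {f g : α → X} {x y : X} (hf : WLim l f x) (hg : WLim l g y) :
    WLim l (fun a => f a - g a) (x - y) := by
  intro φ
  simpa using (hf φ).sub (hg φ)

theorem WLim.map (e : X →L[ℝ] Y) {l : Filter α} {f : α → X} {x : X} (hf : WLim l f x) :
    WLim l (fun a => e (f a)) (e x) := by
  intro φ
  exact hf (φ.comp e)

theorem WLim.norm_le {l : Filter α} [l.NeBot] {f : α → X} {x : X} (hf : WLim l f x) {r : ℝ}
    (h : ∀ᶠ a in l, ‖f a‖ ≤ r) : ‖x‖ ≤ r := by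
  obtain ⟨φ, hφ1, hφ2⟩ := exists_dual_vector'' ℝ x
  have h1 := hf φ
  rw [hφ2] at h1
  refine le_of_tendsto h1 ?_
  filter_upwards [h] with a ha
  calc φ (f a) ≤ ‖φ (f a)‖ := le_abs_self _
    _ ≤ ‖φ‖ * ‖f a‖ := φ.le_opNorm _
    _ ≤ 1 * ‖f a‖ := by gcongr
    _ ≤ r := by rw [one_mul]; exact ha

theorem WLim.mem {l : Filter α} [l.NeBot] {f : α → X} {x : X} (hf : WLim l f x) {K : Set X}
    (hK : IsClosed K) (hc : Convex ℝ K) (h : ∀ᶠ a in l, f a ∈ K) : x ∈ K := by
  by_contra hx
  obtain ⟨φ, s, h1, h2⟩ := geometric_hahn_banach_closed_point hc hK hx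
  have h3 : φ x ≤ s := by
    refine le_of_tendsto (hf φ) ?_
    filter_upwards [h] with a ha
    exact (h1 _ ha).le
  linarith

end basic

section bind

variable {I : Type v} {β : Type w} {X : Type u} [NormedAddCommGroup X] [NormedSpace ℝ X]

theorem eventually_ubind {γ : Type*} (U : Ultrafilter I) (m : I → Ultrafilter γ) (p : γ → Prop) :
    (∀ᶠ x in ((U.bind m : Ultrafilter γ) : Filter γ), p x) ↔
      ∀ᶠ i in (U : Filter I), ∀ᶠ x in ((m i : Ultrafilter γ) : Filter γ), p x := by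
  exact Iff.rfl

/-- The iterated image ultrafilter: first `i` along `U`, then `b` along `W`, pushed by `g i`. -/
noncomputable def iter {γ : Type*} (U : Ultrafilter I) (W : Ultrafilter β) (g : I → β → γ) :
    Ultrafilter γ :=
  U.bind (fun i => W.map (g i))

theorem eventually_iter {γ : Type*} (U : Ultrafilter I) (W : Ultrafilter β) (g : I → β → γ)
    (p : γ → Prop) :
    (∀ᶠ x in (iter U W g : Filter γ), p x) ↔
      ∀ᶠ i in (U : Filter I), ∀ᶠ b in (W : Filter β), p (g i b) := by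
  exact Iff.rfl

theorem WLim.iter {γ : Type*} {U : Ultrafilter I} {W : Ultrafilter β} {g : I → β → γ}
    {F : γ → X} {e : I → X} {x : X}
    (h1 : ∀ᶠ i in (U : Filter I), WLim (W : Filter β) (fun b => F (g i b)) (e i))
    (h2 : WLim (U : Filter I) e x) :
    WLim (iter U W g : Filter γ) F x := by
  intro φ
  rw [tendsto_iff_forall_eventually_mem]
  intro s hs
  rw [eventually_iter]
  obtain ⟨t, hts, hto, hxt⟩ := mem_nhds_iff.mp hs
  have h3 : ∀ᶠ i in (U : Filter I), φ (e i) ∈ t := (h2 φ) (hto.mem_nhds hxt)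
  filter_upwards [h1, h3] with i hi1 hi3
  have h4 := (hi1 φ) (hto.mem_nhds hi3)
  filter_upwards [h4] with b hb
  exact hts hb

end bind

end Vale.Agent.P079
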