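import Mathlib
import Vale.Agent.P079.Weak

/-!
# Minimal invariant sets and the Goebel-Karlovitz lemma
-/

open Filter Topology Set

namespace Vale.Agent.P079

universe u v w

variable {X : Type u} [NormedAddCommGroup X] [NormedSpace ℝ X]

/-- Closed, bounded, convex, nonempty and invariant. -/
structure Inv (T : X → X) (K : Set X) : Prop where
  nonempty : K.Nonempty
  closed : IsClosed K
  convex : Convex ℝ K
  maps : MapsTo T K K

/-- Nonexpansive on `K`. -/
def NonExp (T : X → X) (K : Set X) : Prop :=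
  ∀ x ∈ K, ∀ y ∈ K, ‖T x - T y‖ ≤ ‖x - y‖

theorem exists_minimal (hX : IsReflexive X) {T : X → X} {C : Set X} (hC : Inv T C)
    {M : ℝ} (hM : ∀ x ∈ C, ‖x‖ ≤ M) :
    ∃ K, K ⊆ C ∧ Inv T K ∧ ∀ D, D ⊆ K → Inv T D → D = K := by
  obtain ⟨K, hKC, hK⟩ := zorn_superset_nonempty {K : Set X | Inv T K ∧ K ⊆ C} (by
    intro c hcS hc hne
    refine ⟨⋂₀ c, ?_, fun s hs => sInter_subset_of_mem hs⟩
    obtain ⟨s0, hs0⟩ := hne
    have : Nonempty c := ⟨⟨s0, hs0⟩⟩
    have hdir : Directed (· ≥ ·) (fun s : c => 𝓟 (s : Set X)) := by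
      intro s t
      rcases hc.total s.2 t.2 with h | h
      · exact ⟨s, le_rfl, principal_mono.mpr h⟩
      · exact ⟨t, principal_mono.mpr h, le_rfl⟩
    have hnb : NeBot (⨅ s : c, 𝓟 (s : Set X)) := by
      refine iInf_neBot_of_directed' hdir ?_
      intro s
      exact principal_neBot_iff.mpr (hcS s.2).1.nonempty
    let U : Ultrafilter X := Ultrafilter.of (⨅ s : c, 𝓟 (s : Set X))
    have hU : ∀ s ∈ c, ∀ᶠ x in (U : Filter X), x ∈ s := by
      intro s hs
      have h1 : (U : Filter X) ≤ ⨅ s : c, 𝓟 (s : Set X) := Ultrafilter.of_le _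
      have h2 : (⨅ s : c, 𝓟 (s : Set X)) ≤ 𝓟 s := iInf_le (fun s : c => 𝓟 (s : Set X)) ⟨s, hs⟩
      exact le_principal_iff.mp (h1.trans h2)
    have hb : ∀ᶠ x in (U : Filter X), ‖(fun y => y) x‖ ≤ M := by
      filter_upwards [hU s0 hs0] with x hx
      exact hM x ((hcS hs0).2 hx)
    obtain ⟨x, hx⟩ := WLim.exists hX U (fun y => y) M hb
    have hxmem : ∀ s ∈ c, x ∈ s := fun s hs =>
      hx.mem (hcS hs).1.closed (hcS hs).1.convex (hU s hs)
    refine ⟨⟨⟨x, fun s hs => hxmem s hs⟩, ?_, ?_, ?_⟩, ?_⟩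
    · exact isClosed_sInter fun s hs => (hcS hs).1.closed
    · exact convex_sInter fun s hs => (hcS hs).1.convex
    · intro y hy s hs
      exact (hcS hs).1.maps (hy s hs)
    · exact (sInter_subset_of_mem hs0).trans (hcS hs0).2) C ⟨hC, Subset.rfl⟩
  refine ⟨K, hKC, hK.prop.1, ?_⟩
  intro D hDK hD
  have h := hK.le_of_le (y := D) ⟨hD, hDK.trans hK.prop.2⟩ hDK
  exact Subset.antisymm hDK h

/-- A filter on `X` which is eventually in `K` and along which `T w - w` tends to zero. -/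
def AF (T : X → X) (K : Set X) (W : Filter X) : Prop :=
  (∀ᶠ w in W, w ∈ K) ∧ ∀ δ > 0, ∀ᶠ w in W, ‖T w - w‖ ≤ δ

/-- Minimality. -/
structure MinInv (T : X → X) (K : Set X) : Prop where
  inv : Inv T K
  nonexp : NonExp T K
  bdd : Bornology.IsBounded K
  min : ∀ D, D ⊆ K → Inv T D → D = K

theorem MinInv.image_dense {T : X → X} {K : Set X} (h : MinInv T K) :
    ∀ D, IsClosed D → Convex ℝ D → (∀ x ∈ K, T x ∈ D) → K ⊆ D := by
  intro D hDc hDx hD
  have h1 : Inv T (K ∩ D) := by
    obtain ⟨x, hx⟩ := h.inv.nonempty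
    exact ⟨⟨T x, h.inv.maps hx, hD x hx⟩, h.inv.closed.inter hDc, h.inv.convex.inter hDx,
      fun y hy => ⟨h.inv.maps hy.1, hD y hy.1⟩⟩
  have h2 := h.min _ inter_subset_left h1
  intro x hx
  rw [← h2] at hx
  exact hx.2

theorem MinInv.dist_le_diam {T : X → X} {K : Set X} (h : MinInv T K) {x y : X} (hx : x ∈ K)
    (hy : y ∈ K) : ‖x - y‖ ≤ Metric.diam K := by
  rw [← dist_eq_norm]
  exact Metric.dist_le_diam_of_mem h.bdd hx hy

/-- Goebel-Karlovitz, ultrafilter form. -/
theorem MinInv.goebel_karlovitz (hX : IsReflexive X) {T : X → X} {K : Set X} (h : MinInv T K)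
    (W : Ultrafilter X) (hW : AF T K W) {x : X} (hx : x ∈ K) {c : ℝ}
    (hc : ∀ᶠ w in (W : Filter X), ‖w - x‖ ≤ c) : Metric.diam K ≤ c := by
  -- the limit of distances
  obtain ⟨M, hM⟩ := h.bdd.exists_norm_le
  have hlim : ∀ z : X, ∃ l : ℝ, Tendsto (fun w => ‖w - z‖) W (𝓝 l) := by
    intro z
    apply exists_real_ulim W _ (M + ‖z‖)
    filter_upwards [hW.1] with w hw
    rw [abs_of_nonneg (norm_nonneg _)]
    exact (norm_sub_le _ _).trans (by gcongr; exact hM w hw)
  choose Φ hΦ using hlim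
  have hΦx : Φ x ≤ c := le_of_tendsto (hΦ x) hc
  have hΦlip : ∀ z z', Φ z ≤ Φ z' + ‖z - z'‖ := by
    intro z z'
    refine le_of_tendsto_of_tendsto (hΦ z) ((hΦ z').add_const ‖z - z'‖) ?_
    refine Eventually.of_forall fun w => ?_
    calc ‖w - z‖ = ‖(w - z') - (z - z')‖ := by congr 1; abel
      _ ≤ ‖w - z'‖ + ‖z - z'‖ := norm_sub_le _ _
  have hΦT : ∀ z ∈ K, Φ (T z) ≤ Φ z := by
    intro z hz
    refine le_of_forall_pos_le_add fun δ hδ => ?_
    refine le_of_tendsto_of_tendsto (hΦ (T z)) ((hΦ z).add_const δ) ?_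
    filter_upwards [hW.1, hW.2 δ hδ] with w hw hwδ
    calc ‖w - T z‖ = ‖(T w - T z) - (T w - w)‖ := by congr 1; abel
      _ ≤ ‖T w - T z‖ + ‖T w - w‖ := norm_sub_le _ _
      _ ≤ ‖w - z‖ + δ := add_le_add (h.nonexp w hw z hz) hwδ
  have hΦconv : ∀ z z' : X, ∀ a b : ℝ, 0 ≤ a → 0 ≤ b → a + b = 1 →
      Φ (a • z + b • z') ≤ a * Φ z + b * Φ z' := by
    intro z z' a b ha hb hab
    refine le_of_tendsto_of_tendsto (hΦ _) (((hΦ z).const_mul a).add ((hΦ z').const_mul b)) ?_
    refine Eventually.of_forall fun w => ?_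
    have : w - (a • z + b • z') = a • (w - z) + b • (w - z') := by
      have : w = a • w + b • w := by rw [← add_smul, hab, one_smul]
      nth_rewrite 1 [this]
      rw [smul_sub, smul_sub]; abel
    calc ‖w - (a • z + b • z')‖ = ‖a • (w - z) + b • (w - z')‖ := by rw [this]
      _ ≤ ‖a • (w - z)‖ + ‖b • (w - z')‖ := norm_add_le _ _
      _ = a * ‖w - z‖ + b * ‖w - z'‖ := by
        rw [norm_smul, norm_smul, Real.norm_of_nonneg ha, Real.norm_of_nonneg hb]
  have hΦcont : Continuous Φ := by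
    have : LipschitzWith 1 Φ := by
      apply LipschitzWith.of_le_add
      intro z z'
      rw [dist_eq_norm]
      exact hΦlip z z'
    exact this.continuous
  -- the sublevel set at level `c` is all of `K`
  have hsub : ∀ z ∈ K, Φ z ≤ c := by
    have hinv : Inv T (K ∩ {z | Φ z ≤ c}) := by
      refine ⟨⟨x, hx, hΦx⟩, h.inv.closed.inter (isClosed_le hΦcont continuous_const), ?_, ?_⟩
      · refine h.inv.convex.inter ?_
        intro z hz z' hz' a b ha hb hab
        have hz1 : Φ z ≤ c := hz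
        have hz2 : Φ z' ≤ c := hz'
        show Φ (a • z + b • z') ≤ c
        calc Φ (a • z + b • z') ≤ a * Φ z + b * Φ z' := hΦconv z z' a b ha hb hab
          _ ≤ a * c + b * c := by gcongr
          _ = c := by rw [← add_mul, hab, one_mul]
      · intro z hz
        exact ⟨h.inv.maps hz.1, (hΦT z hz.1).trans hz.2⟩
    have := h.min _ inter_subset_left hinv
    intro z hz
    rw [← this] at hz
    exact hz.2
  -- weak limit
  have hb : ∀ᶠ w in (W : Filter X), ‖(fun y => y) w‖ ≤ M := by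
    filter_upwards [hW.1] with w hw
    exact hM w hw
  obtain ⟨u, hu⟩ := WLim.exists hX W (fun y => y) M hb
  have huK : u ∈ K := hu.mem h.inv.closed h.inv.convex hW.1
  have huc : ∀ y ∈ K, ‖u - y‖ ≤ c := by
    intro y hy
    refine le_of_forall_pos_le_add fun δ hδ => ?_
    have h1 : WLim (W : Filter X) (fun w => w - y) (u - y) := hu.sub (WLim.const y)
    refine h1.norm_le ?_
    have h2 : Φ y < c + δ := lt_of_le_of_lt (hsub y hy) (by linarith)
    filter_upwards [(hΦ y).eventually_lt_const h2] with w hw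
    exact hw.le
  have hD : Inv T {z | z ∈ K ∧ ∀ y ∈ K, ‖z - y‖ ≤ c} := by
    refine ⟨⟨u, huK, huc⟩, ?_, ?_, ?_⟩
    · have : {z | z ∈ K ∧ ∀ y ∈ K, ‖z - y‖ ≤ c} = K ∩ ⋂ y ∈ K, {z | ‖z - y‖ ≤ c} := by
        ext z; simp
      rw [this]
      refine h.inv.closed.inter (isClosed_biInter fun y _ => ?_)
      exact isClosed_le (by fun_prop) continuous_const
    · intro z hz z' hz' a b ha hb hab
      refine ⟨h.inv.convex hz.1 hz'.1 ha hb hab, fun y hy => ?_⟩
      have : (a • z + b • z') - y = a • (z - y) + b • (z' - y) := by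
        have : y = a • y + b • y := by rw [← add_smul, hab, one_smul]
        nth_rewrite 1 [this]
        rw [smul_sub, smul_sub]; abel
      calc ‖(a • z + b • z') - y‖ = ‖a • (z - y) + b • (z' - y)‖ := by rw [this]
        _ ≤ ‖a • (z - y)‖ + ‖b • (z' - y)‖ := norm_add_le _ _
        _ = a * ‖z - y‖ + b * ‖z' - y‖ := by
          rw [norm_smul, norm_smul, Real.norm_of_nonneg ha, Real.norm_of_nonneg hb]
        _ ≤ a * c + b * c := by
          gcongr
          · exact hz.2 y hy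
          · exact hz'.2 y hy
        _ = c := by rw [← add_mul, hab, one_mul]
    · intro z hz
      refine ⟨h.inv.maps hz.1, ?_⟩
      have hK : K ⊆ Metric.closedBall (T z) c := by
        refine h.image_dense _ Metric.isClosed_closedBall (convex_closedBall _ _) ?_
        intro x hx
        rw [Metric.mem_closedBall, dist_eq_norm, norm_sub_rev]
        exact (h.nonexp z hz.1 x hx).trans (hz.2 x hx)
      intro y hy
      have := hK hy
      rwa [Metric.mem_closedBall, dist_eq_norm, norm_sub_rev] at this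
  have hDK := h.min _ (fun z hz => hz.1) hD
  have hc0 : 0 ≤ c := (norm_nonneg _).trans (huc u huK)
  refine Metric.diam_le_of_forall_dist_le hc0 ?_
  intro z hz y hy
  rw [← hDK] at hz
  rw [dist_eq_norm]
  exact hz.2 y hy

end Vale.Agent.P079
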