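import Mathlib
import Vale.Agent.P079.Minimal

/-!
# Resolvents
-/

open Filter Topology Set

namespace Vale.Agent.P079

universe u v w

variable {X : Type u} [NormedAddCommGroup X] [NormedSpace ℝ X]

theorem exists_resolvent_point [CompleteSpace X] {T : X → X} {K : Set X} (h : Inv T K)
    (hT : NonExp T K) {ε : ℝ} (hε0 : 0 < ε) (hε1 : ε ≤ 1) {z : X} (hz : z ∈ K) :
    ∃ x ∈ K, x = (1 - ε) • T x + ε • z := by
  let F : K → K := fun x =>
    ⟨(1 - ε) • T x + ε • z, h.convex (h.maps x.2) hz (by linarith) hε0.le (by ring)⟩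
  have hF : ContractingWith (Real.toNNReal (1 - ε)) F := by
    refine ⟨?_, ?_⟩
    · rw [← NNReal.coe_lt_coe, Real.coe_toNNReal _ (by linarith)]
      simp [hε0]
    · refine LipschitzWith.of_dist_le_mul fun x y => ?_
      rw [Real.coe_toNNReal _ (by linarith)]
      have h1 : dist (F x) (F y) = ‖((1 - ε) • T x + ε • z) - ((1 - ε) • T y + ε • z)‖ := by
        rw [Subtype.dist_eq, dist_eq_norm]
      have h2 : dist x y = ‖(x : X) - y‖ := by
        rw [Subtype.dist_eq, dist_eq_norm]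
      rw [h1, h2]
      have h3 : ((1 - ε) • T x + ε • z) - ((1 - ε) • T y + ε • z) = (1 - ε) • (T x - T y) := by
        rw [smul_sub]; abel
      rw [h3, norm_smul, Real.norm_of_nonneg (by linarith)]
      exact mul_le_mul_of_nonneg_left (hT x x.2 y y.2) (by linarith)
  have : CompleteSpace K := h.closed.completeSpace_coe
  have : Nonempty K := ⟨⟨z, hz⟩⟩
  have hfix := hF.fixedPoint_isFixedPt
  refine ⟨(ContractingWith.fixedPoint F hF : K), Subtype.coe_prop _, ?_⟩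
  have := congrArg (Subtype.val) hfix.eq
  exact this.symm

/-- A family of resolvents `R ε z` for `T` on `K`. -/
theorem exists_resolvent [CompleteSpace X] {T : X → X} {K : Set X} (h : Inv T K)
    (hT : NonExp T K) : ∃ R : ℝ → X → X, ∀ ε, 0 < ε → ε ≤ 1 → ∀ z ∈ K,
      R ε z ∈ K ∧ R ε z = (1 - ε) • T (R ε z) + ε • z := by
  classical
  have key : ∀ (ε : ℝ) (z : X), ∃ x, 0 < ε → ε ≤ 1 → z ∈ K →
      x ∈ K ∧ x = (1 - ε) • T x + ε • z := by
    intro ε z
    by_cases h1 : 0 < ε ∧ ε ≤ 1 ∧ z ∈ K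
    · obtain ⟨x, hx, hx2⟩ := exists_resolvent_point h hT h1.1 h1.2.1 h1.2.2
      exact ⟨x, fun _ _ _ => ⟨hx, hx2⟩⟩
    · refine ⟨0, fun a b c => (h1 ⟨a, b, c⟩).elim⟩
  choose R hR using key
  exact ⟨R, fun ε a b z c => hR ε z a b c⟩

variable {T : X → X} {K : Set X}

/-- Resolvents are nonexpansive. -/
theorem resolvent_nonexp (hT : NonExp T K) {ε : ℝ} (hε0 : 0 < ε) (hε1 : ε ≤ 1)
    {z z' x x' : X} (hx : x ∈ K) (hx' : x' ∈ K)
    (h : x = (1 - ε) • T x + ε • z) (h' : x' = (1 - ε) • T x' + ε • z') :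
    ‖x - x'‖ ≤ ‖z - z'‖ := by
  have h1 : ‖x - x'‖ ≤ (1 - ε) * ‖x - x'‖ + ε * ‖z - z'‖ := by
    calc ‖x - x'‖ = ‖((1 - ε) • T x + ε • z) - ((1 - ε) • T x' + ε • z')‖ := by rw [← h, ← h']
      _ = ‖(1 - ε) • (T x - T x') + ε • (z - z')‖ := by
        congr 1; rw [smul_sub, smul_sub]; abel
      _ ≤ ‖(1 - ε) • (T x - T x')‖ + ‖ε • (z - z')‖ := norm_add_le _ _
      _ = (1 - ε) * ‖T x - T x'‖ + ε * ‖z - z'‖ := by
        rw [norm_smul, norm_smul, Real.norm_of_nonneg (by linarith), Real.norm_of_nonneg hε0.le]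
      _ ≤ (1 - ε) * ‖x - x'‖ + ε * ‖z - z'‖ := by
        have := mul_le_mul_of_nonneg_left (hT x hx x' hx') (by linarith : (0 : ℝ) ≤ 1 - ε)
        linarith
  have h2 : ε * ‖x - x'‖ ≤ ε * ‖z - z'‖ := by linarith
  exact le_of_mul_le_mul_left h2 hε0

/-- The residual of a resolvent. -/
theorem resolvent_residual {ε : ℝ} (hε0 : 0 < ε) {z x : X}
    (h : x = (1 - ε) • T x + ε • z) : ‖T x - x‖ = ε * ‖T x - z‖ := by
  have : T x - x = ε • (T x - z) := by
    nth_rewrite 2 [h]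
    rw [smul_sub, sub_smul, one_smul]; abel
  rw [this, norm_smul, Real.norm_of_nonneg hε0.le]

/-- The resolvent of an almost fixed point is close to it. -/
theorem resolvent_near (hT : NonExp T K) {ε : ℝ} (hε0 : 0 < ε) (hε1 : ε ≤ 1)
    {z x : X} (hx : x ∈ K) (hz : z ∈ K)
    (h : x = (1 - ε) • T x + ε • z) : ‖x - z‖ ≤ ε⁻¹ * ‖T z - z‖ := by
  have h1 : ‖x - z‖ ≤ (1 - ε) * ‖x - z‖ + ‖T z - z‖ := by
    calc ‖x - z‖ = ‖((1 - ε) • T x + ε • z) - z‖ := by rw [← h]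
      _ = ‖(1 - ε) • (T x - T z) + (1 - ε) • (T z - z)‖ := by
        congr 1; rw [smul_sub, smul_sub, sub_smul, sub_smul, sub_smul, one_smul, one_smul,
          one_smul]; abel
      _ ≤ ‖(1 - ε) • (T x - T z)‖ + ‖(1 - ε) • (T z - z)‖ := norm_add_le _ _
      _ = (1 - ε) * ‖T x - T z‖ + (1 - ε) * ‖T z - z‖ := by
        rw [norm_smul, norm_smul, Real.norm_of_nonneg (by linarith)]
      _ ≤ (1 - ε) * ‖x - z‖ + 1 * ‖T z - z‖ := by
        have h2 := mul_le_mul_of_nonneg_left (hT x hx z hz) (by linarith : (0 : ℝ) ≤ 1 - ε)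
        have h3 : (1 - ε) * ‖T z - z‖ ≤ 1 * ‖T z - z‖ := by
          apply mul_le_mul_of_nonneg_right (by linarith) (norm_nonneg _)
        linarith
      _ = (1 - ε) * ‖x - z‖ + ‖T z - z‖ := by rw [one_mul]
  have h2 : ε * ‖x - z‖ ≤ ‖T z - z‖ := by linarith
  rw [inv_mul_eq_div, le_div_iff₀ hε0]
  linarith

end Vale.Agent.P079
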