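import Mathlib
import Vale.Agent.P079.Resolvent

/-!
# Iterated resolvent processes
-/

open Filter Topology Set

namespace Vale.Agent.P079

universe u v w

/-- The norm of `Y` is asymptotically uniformly smooth in the weak sense that for every `x` in the
unit ball there is a weak neighbourhood of zero on whose intersection with the unit ball
`‖x + y‖ ≤ 2 - δ`. -/
def AsympSmooth (Y : Type v) [NormedAddCommGroup Y] [NormedSpace ℝ Y] (δ : ℝ) : Prop :=
  ∀ x : Y, ‖x‖ ≤ 1 → ∃ s : Finset (StrongDual ℝ Y), ∃ η : ℝ, 0 < η ∧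
    ∀ y : Y, ‖y‖ ≤ 1 → (∀ φ ∈ s, |φ y| ≤ η) → ‖x + y‖ ≤ 2 - δ

theorem AsympSmooth.eventually {Y : Type v} [NormedAddCommGroup Y] [NormedSpace ℝ Y] {δ : ℝ}
    (h : AsympSmooth Y δ) {I : Type w} (U : Filter I) {y : I → Y} (hy : WLim U y 0) {x : Y}
    {r : ℝ} (hr : 0 < r) (hx : ‖x‖ ≤ r) (hyr : ∀ᶠ i in U, ‖y i‖ ≤ r) :
    ∀ᶠ i in U, ‖x + y i‖ ≤ (2 - δ) * r := by
  have hx1 : ‖r⁻¹ • x‖ ≤ 1 := by
    rw [norm_smul, Real.norm_of_nonneg (inv_nonneg.mpr hr.le), inv_mul_eq_div, div_le_one hr]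
    exact hx
  obtain ⟨s, η, hη, hs⟩ := h (r⁻¹ • x) hx1
  have h1 : ∀ᶠ i in U, ∀ φ ∈ s, |φ (r⁻¹ • y i)| ≤ η := by
    rw [Filter.eventually_all_finset]
    intro φ _
    have h2 : Tendsto (fun i => |φ (r⁻¹ • y i)|) U (𝓝 0) := by
      have h3 := ((hy φ).const_mul r⁻¹).abs
      simpa using h3
    filter_upwards [h2.eventually_lt_const hη] with i hi
    exact hi.le
  filter_upwards [h1, hyr] with i hi hir
  have hy1 : ‖r⁻¹ • y i‖ ≤ 1 := by
    rw [norm_smul, Real.norm_of_nonneg (inv_nonneg.mpr hr.le), inv_mul_eq_div, div_le_one hr]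
    exact hir
  have h4 := hs (r⁻¹ • y i) hy1 hi
  rw [← smul_add, norm_smul, Real.norm_of_nonneg (inv_nonneg.mpr hr.le), inv_mul_eq_div,
    div_le_iff₀ hr] at h4
  exact h4

variable {X : Type u} [NormedAddCommGroup X] [NormedSpace ℝ X]
variable {Y : Type v} [NormedAddCommGroup Y] [NormedSpace ℝ Y]

/-- A program of contraction factor `ρ` and oscillation `c`. -/
def IsProgram (Y : Type v) [NormedAddCommGroup Y] [NormedSpace ℝ Y] (T : X → X) (K : Set X)
    (L ρ c : ℝ) {I : Type} (U : Ultrafilter I) (B : I → X → X) : Prop :=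
  (∀ κ, MapsTo (B κ) K K) ∧
  (∀ κ, ∀ w ∈ K, ∀ w' ∈ K, ‖B κ w - B κ w'‖ ≤ ρ * ‖w - w'‖) ∧
  (∀ W : Ultrafilter X, AF T K W → ∀ δ > 0, ∀ᶠ κ in (U : Filter I), ∀ᶠ w in (W : Filter X),
    ‖T (B κ w) - B κ w‖ ≤ δ) ∧
  (∀ W : Ultrafilter X, AF T K W → ∀ Ψ : X → Y,
    (∀ w ∈ K, ∀ w' ∈ K, ‖Ψ w - Ψ w'‖ ≤ L * ‖w - w'‖) → ∀ e : I → Y,
    (∀ κ, WLim (W : Filter X) (fun w => Ψ (B κ w)) (e κ)) → ∀ e₀ : Y,
    WLim (U : Filter I) e e₀ → ∀ᶠ κ in (U : Filter I), ‖e κ - e₀‖ ≤ c)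

omit [NormedSpace ℝ X] in
theorem IsProgram.af {T : X → X} {K : Set X} {L ρ c : ℝ} {I : Type} {U : Ultrafilter I}
    {B : I → X → X} (h : IsProgram Y T K L ρ c U B) {W : Ultrafilter X} (hW : AF T K W) :
    AF T K (iter U W B : Filter X) := by
  refine ⟨?_, ?_⟩
  · rw [eventually_iter]
    refine Eventually.of_forall fun κ => ?_
    filter_upwards [hW.1] with w hw
    exact h.1 κ hw
  · intro δ hδ
    rw [eventually_iter]
    exact h.2.2.1 W hW δ hδ

omit [NormedSpace ℝ X] [NormedSpace ℝ Y] in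
theorem lip_bdd {K : Set X} (hK : Bornology.IsBounded K) {L : ℝ} (hL : 0 ≤ L) {Ψ : X → Y}
    (hΨ : ∀ w ∈ K, ∀ w' ∈ K, ‖Ψ w - Ψ w'‖ ≤ L * ‖w - w'‖) :
    ∃ M, ∀ w ∈ K, ‖Ψ w‖ ≤ M := by
  rcases K.eq_empty_or_nonempty with h | ⟨w0, hw0⟩
  · exact ⟨0, by simp [h]⟩
  · refine ⟨‖Ψ w0‖ + L * Metric.diam K, fun w hw => ?_⟩
    calc ‖Ψ w‖ = ‖Ψ w0 + (Ψ w - Ψ w0)‖ := by congr 1; abel
      _ ≤ ‖Ψ w0‖ + ‖Ψ w - Ψ w0‖ := norm_add_le _ _
      _ ≤ ‖Ψ w0‖ + L * Metric.diam K := by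
        gcongr
        refine (hΨ w hw w0 hw0).trans ?_
        gcongr
        rw [← dist_eq_norm]
        exact Metric.dist_le_diam_of_mem hK hw hw0

omit [NormedSpace ℝ X] in
/-- Composition step. -/
theorem IsProgram.comp (hY : IsReflexive Y) {δ : ℝ} (hδ : AsympSmooth Y δ)
    {T : X → X} {K : Set X} (hK : Bornology.IsBounded K)
    {L ρ c : ℝ} (hL : 0 ≤ L) (hρ0 : 0 ≤ ρ) (hρ1 : ρ ≤ 1) (hc : 0 < c) {I : Type}
    {U : Ultrafilter I}
    {B : I → X → X} (h : IsProgram Y T K L ρ c U B) :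
    IsProgram Y T K L (ρ * ρ) ((2 - δ) * c) (iter U U (fun i j => (i, j)))
      (fun κ w => B κ.1 (B κ.2 w)) := by
  obtain ⟨hmaps, hlip, haf, hosc⟩ := id h
  refine ⟨?_, ?_, ?_, ?_⟩
  · intro κ w hw
    exact hmaps _ (hmaps _ hw)
  · intro κ w hw w' hw'
    calc ‖B κ.1 (B κ.2 w) - B κ.1 (B κ.2 w')‖ ≤ ρ * ‖B κ.2 w - B κ.2 w'‖ :=
        hlip _ _ (hmaps _ hw) _ (hmaps _ hw')
      _ ≤ ρ * (ρ * ‖w - w'‖) := by gcongr; exact hlip _ _ hw _ hw'
      _ = ρ * ρ * ‖w - w'‖ := by ring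
  · intro W hW η hη
    rw [eventually_iter]
    exact haf _ (h.af hW) η hη
  · intro W hW Ψ hΨ e he e₀ he₀
    obtain ⟨M, hM⟩ := lip_bdd hK hL hΨ
    have heM : ∀ κ, ‖e κ‖ ≤ M := by
      intro κ
      refine (he κ).norm_le ?_
      filter_upwards [hW.1] with w hw
      exact hM _ (hmaps _ (hmaps _ hw))
    have hf : ∀ i, ∃ y, WLim (U : Filter I) (fun j => e (i, j)) y := fun i =>
      WLim.exists hY U _ M (Eventually.of_forall fun j => heM (i, j))
    choose f hf using hf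
    have hfM : ∀ i, ‖f i‖ ≤ M := fun i =>
      (hf i).norm_le (Eventually.of_forall fun j => heM (i, j))
    obtain ⟨f₀, hf₀⟩ := WLim.exists hY U f M (Eventually.of_forall hfM)
    have hef : WLim (iter U U (fun i j => (i, j)) : Filter (I × I)) e f₀ :=
      WLim.iter (F := e) (e := f) (Eventually.of_forall hf) hf₀
    have hEq : f₀ = e₀ := hef.unique he₀
    subst hEq
    -- first oscillation
    have h1 : ∀ i, ∀ᶠ j in (U : Filter I), ‖e (i, j) - f i‖ ≤ c := by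
      intro i
      refine hosc W hW (fun w => Ψ (B i w)) ?_ (fun j => e (i, j)) ?_ (f i) (hf i)
      · intro w hw w' hw'
        calc ‖Ψ (B i w) - Ψ (B i w')‖ ≤ L * ‖B i w - B i w'‖ :=
            hΨ _ (hmaps _ hw) _ (hmaps _ hw')
          _ ≤ L * (ρ * ‖w - w'‖) := by gcongr; exact hlip _ _ hw _ hw'
          _ ≤ L * (1 * ‖w - w'‖) := by gcongr
          _ = L * ‖w - w'‖ := by rw [one_mul]
      · intro j
        exact he (i, j)
    have h2 : ∀ᶠ i in (U : Filter I), ‖f i - f₀‖ ≤ c := by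
      refine hosc (iter U W B) (h.af hW) Ψ hΨ f ?_ f₀ hf₀
      intro i
      exact WLim.iter (F := fun w => Ψ (B i w)) (e := fun j => e (i, j))
        (Eventually.of_forall fun j => he (i, j)) (hf i)
    rw [eventually_iter]
    filter_upwards [h2] with i hi
    have hy0 : WLim (U : Filter I) (fun j => e (i, j) - f i) 0 := by
      have := (hf i).sub (WLim.const (f i))
      simpa using this
    filter_upwards [hδ.eventually (U : Filter I) hy0 hc hi (h1 i)] with j hj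
    have : e (i, j) - f₀ = (f i - f₀) + (e (i, j) - f i) := by abel
    rw [this]
    exact hj

/-- Base program. -/
theorem exists_base_program [CompleteSpace X] {T : X → X} {K : Set X} (h : Inv T K)
    (hT : NonExp T K) (hK : Bornology.IsBounded K) {L lam : ℝ} (hL : 0 ≤ L) (hlam0 : 0 < lam)
    (hlam1 : lam ≤ 1) (hD : 0 < Metric.diam K) :
    ∃ (I : Type) (U : Ultrafilter I) (B : I → X → X),
      IsProgram Y T K L (1 - lam) (L * (3 * (lam * Metric.diam K))) U B := by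
  obtain ⟨R, hR⟩ := exists_resolvent h hT
  obtain ⟨y, hy⟩ := h.nonempty
  have hdist : ∀ a ∈ K, ∀ b ∈ K, ‖a - b‖ ≤ Metric.diam K := by
    intro a ha b hb
    rw [← dist_eq_norm]
    exact Metric.dist_le_diam_of_mem hK ha hb
  set E : ℕ → ℝ := fun n => 1 / ((n : ℝ) + 1) with hE
  have hE0 : ∀ n, 0 < E n := fun n => Nat.one_div_pos_of_nat
  have hE1 : ∀ n, E n ≤ 1 := by
    intro n
    rw [hE]
    have : (0 : ℝ) ≤ n := Nat.cast_nonneg n
    exact (div_le_one (by positivity)).mpr (by linarith)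
  have hz : ∀ w ∈ K, (1 - lam) • w + lam • y ∈ K := fun w hw =>
    h.convex hw hy (by linarith) hlam0.le (by ring)
  refine ⟨ℕ, hyperfilter ℕ, fun n w => R (E n) ((1 - lam) • w + lam • y), ?_, ?_, ?_, ?_⟩
  · intro n w hw
    exact (hR _ (hE0 n) (hE1 n) _ (hz w hw)).1
  · intro n w hw w' hw'
    have h1 := hR _ (hE0 n) (hE1 n) _ (hz w hw)
    have h2 := hR _ (hE0 n) (hE1 n) _ (hz w' hw')
    refine (resolvent_nonexp hT (hE0 n) (hE1 n) h1.1 h2.1 h1.2 h2.2).trans ?_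
    have : ((1 - lam) • w + lam • y) - ((1 - lam) • w' + lam • y) = (1 - lam) • (w - w') := by
      rw [smul_sub]; abel
    rw [this, norm_smul, Real.norm_of_nonneg (by linarith)]
  · intro W hW δ hδ
    have hlim : Tendsto (fun n : ℕ => E n * Metric.diam K) atTop (𝓝 (0 * Metric.diam K)) :=
      (tendsto_one_div_add_atTop_nhds_zero_nat (𝕜 := ℝ)).mul_const _
    rw [zero_mul] at hlim
    have h3 := (hlim.eventually_lt_const hδ)
    have h4 : ∀ᶠ n in ((hyperfilter ℕ : Ultrafilter ℕ) : Filter ℕ), E n * Metric.diam K < δ :=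
      h3.filter_mono Nat.hyperfilter_le_atTop
    filter_upwards [h4] with n hn
    filter_upwards [hW.1] with w hw
    have h1 := hR _ (hE0 n) (hE1 n) _ (hz w hw)
    rw [resolvent_residual (hE0 n) h1.2]
    refine le_trans ?_ hn.le
    exact mul_le_mul_of_nonneg_left (hdist _ (h.maps h1.1) _ (hz w hw)) (hE0 n).le
  · intro W hW Ψ hΨ e he e₀ he₀
    have hnear : ∀ n, ∀ w ∈ K, ‖R (E n) ((1 - lam) • w + lam • y) - w‖ ≤
        lam * Metric.diam K + (E n)⁻¹ * ‖T w - w‖ := by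
      intro n w hw
      have h1 := hR _ (hE0 n) (hE1 n) _ (hz w hw)
      have h2 := hR _ (hE0 n) (hE1 n) _ hw
      have h3 := resolvent_nonexp hT (hE0 n) (hE1 n) h1.1 h2.1 h1.2 h2.2
      have h4 := resolvent_near hT (hE0 n) (hE1 n) h2.1 hw h2.2
      have h5 : ((1 - lam) • w + lam • y) - w = lam • (y - w) := by
        rw [sub_smul, smul_sub, one_smul]; abel
      rw [h5, norm_smul, Real.norm_of_nonneg hlam0.le] at h3
      have h6 := mul_le_mul_of_nonneg_left (hdist y hy w hw) hlam0.le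
      calc ‖R (E n) ((1 - lam) • w + lam • y) - w‖
          = ‖(R (E n) ((1 - lam) • w + lam • y) - R (E n) w) + (R (E n) w - w)‖ := by
            congr 1; abel
        _ ≤ ‖R (E n) ((1 - lam) • w + lam • y) - R (E n) w‖ + ‖R (E n) w - w‖ :=
            norm_add_le _ _
        _ ≤ _ := by linarith
    have hnm : ∀ n m, ‖e n - e m‖ ≤ L * (3 * (lam * Metric.diam K)) := by
      intro n m
      refine ((he n).sub (he m)).norm_le ?_
      have hpos : 0 < (E n)⁻¹ + (E m)⁻¹ := add_pos (inv_pos.mpr (hE0 n)) (inv_pos.mpr (hE0 m))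
      have hlD : 0 < lam * Metric.diam K := mul_pos hlam0 hD
      filter_upwards [hW.1, hW.2 (lam * Metric.diam K / ((E n)⁻¹ + (E m)⁻¹))
        (div_pos hlD hpos)] with w hw hw2
      have h1 := hR _ (hE0 n) (hE1 n) _ (hz w hw)
      have h2 := hR _ (hE0 m) (hE1 m) _ (hz w hw)
      refine (hΨ _ h1.1 _ h2.1).trans ?_
      gcongr
      have h3 := hnear n w hw
      have h4 := hnear m w hw
      rw [le_div_iff₀ hpos] at hw2
      calc ‖R (E n) ((1 - lam) • w + lam • y) - R (E m) ((1 - lam) • w + lam • y)‖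
          = ‖(R (E n) ((1 - lam) • w + lam • y) - w) -
            (R (E m) ((1 - lam) • w + lam • y) - w)‖ := by congr 1; abel
        _ ≤ ‖R (E n) ((1 - lam) • w + lam • y) - w‖ +
            ‖R (E m) ((1 - lam) • w + lam • y) - w‖ := norm_sub_le _ _
        _ ≤ _ := by linarith
    refine Eventually.of_forall fun n => ?_
    exact ((WLim.const (e n)).sub he₀).norm_le (Eventually.of_forall fun m => hnm n m)

/-- Iterated programs. -/
theorem exists_program [CompleteSpace X] (hY : IsReflexive Y) {δ : ℝ} (hδ : AsympSmooth Y δ)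
    (hδ1 : δ ≤ 1) {T : X → X} {K : Set X} (h : Inv T K)
    (hT : NonExp T K) (hK : Bornology.IsBounded K) {L lam : ℝ} (hL : 0 < L) (hlam0 : 0 < lam)
    (hlam1 : lam ≤ 1) (hD : 0 < Metric.diam K) (k : ℕ) :
    ∃ (I : Type) (U : Ultrafilter I) (B : I → X → X),
      IsProgram Y T K L ((1 - lam) ^ (2 ^ k))
        ((2 - δ) ^ k * (L * (3 * (lam * Metric.diam K)))) U B := by
  induction k with
  | zero =>
    obtain ⟨I, U, B, hB⟩ := exists_base_program (Y := Y) h hT hK hL.le hlam0 hlam1 hD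
    refine ⟨I, U, B, ?_⟩
    simpa using hB
  | succ k ih =>
    obtain ⟨I, U, B, hB⟩ := ih
    have hρ0 : 0 ≤ (1 - lam) ^ (2 ^ k) := pow_nonneg (by linarith) _
    have hρ1 : (1 - lam) ^ (2 ^ k) ≤ 1 := pow_le_one₀ (by linarith) (by linarith)
    have hc : 0 < (2 - δ) ^ k * (L * (3 * (lam * Metric.diam K))) := by
      have : 0 < (2 - δ) ^ k := pow_pos (by linarith) _
      positivity
    have hcomp := hB.comp hY hδ hK hL.le hρ0 hρ1 hc
    refine ⟨I × I, iter U U (fun i j => (i, j)), fun κ w => B κ.1 (B κ.2 w), ?_⟩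
    have e1 : (1 - lam) ^ (2 ^ (k + 1)) = (1 - lam) ^ (2 ^ k) * (1 - lam) ^ (2 ^ k) := by
      rw [← pow_add]; congr 1; ring
    have e2 : (2 - δ) ^ (k + 1) * (L * (3 * (lam * Metric.diam K))) =
        (2 - δ) * ((2 - δ) ^ k * (L * (3 * (lam * Metric.diam K)))) := by ring
    rw [e1, e2]
    exact hcomp

end Vale.Agent.P079
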