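import Mathlib
import Vale.Agent.P079.Program

/-!
# Fixed point property from an equivalent asymptotically smooth norm
-/

open Filter Topology Set

namespace Vale.Agent.P079

universe u v w

/-- The fixed point property for nonexpansive maps: every selfmap `T` of a nonempty closed bounded
convex set `C` with `‖T a - T b‖ ≤ ‖a - b‖` has a fixed point. -/
def FPP (X : Type u) [NormedAddCommGroup X] [NormedSpace ℝ X] : Prop :=
  ∀ C : Set X, C.Nonempty → IsClosed C → Bornology.IsBounded C → Convex ℝ C →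
    ∀ T : C → C, (∀ a b : C, ‖(T a : X) - (T b : X)‖ ≤ ‖(a : X) - (b : X)‖) → ∃ x : C, T x = x

variable {X : Type u} [NormedAddCommGroup X] [NormedSpace ℝ X]
variable {Y : Type v} [NormedAddCommGroup Y] [NormedSpace ℝ Y]

theorem IsReflexive.of_equiv (e : X ≃L[ℝ] Y) (h : IsReflexive X) : IsReflexive Y := by
  intro ξ
  let P : StrongDual ℝ X →L[ℝ] StrongDual ℝ Y :=
    (ContinuousLinearMap.compL ℝ Y X ℝ).flip (e.symm : Y →L[ℝ] X)
  obtain ⟨x, hx⟩ := h (ξ.comp P)
  refine ⟨e x, ?_⟩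
  ext ψ
  have h1 := congrArg (fun ζ => ζ (ψ.comp (e : X →L[ℝ] Y))) hx
  have h2 : P (ψ.comp (e : X →L[ℝ] Y)) = ψ := by
    ext y
    simp [P]
  simp only [NormedSpace.dual_def, ContinuousLinearMap.comp_apply] at h1
  rw [h2] at h1
  rw [NormedSpace.dual_def]
  exact h1

/-- Choice of the parameters. -/
theorem exists_params {A δ : ℝ} (hA : 0 < A) (hδ0 : 0 < δ) (hδ1 : δ ≤ 1) :
    ∃ (k : ℕ) (lam : ℝ), 0 < lam ∧ lam ≤ 1 ∧
      A * ((1 - lam) ^ (2 ^ k) + (2 - δ) ^ k * (3 * lam)) < 1 := by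
  -- choose `s` with `A * exp (-s) < 1/2`
  obtain ⟨s, hs0, hs⟩ : ∃ s : ℝ, 0 < s ∧ A * Real.exp (-s) < 1 / 2 := by
    have h1 : Tendsto (fun s : ℝ => A * Real.exp (-s)) atTop (𝓝 (A * 0)) :=
      (Real.tendsto_exp_neg_atTop_nhds_zero).const_mul A
    rw [mul_zero] at h1
    obtain ⟨s, hs⟩ := ((h1.eventually_lt_const (by norm_num : (0 : ℝ) < 1 / 2)).and
      (eventually_gt_atTop 0)).exists
    exact ⟨s, hs.2, hs.1⟩
  have h2 : Tendsto (fun k : ℕ => (A * (3 * s)) * ((2 - δ) / 2) ^ k) atTop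
      (𝓝 ((A * (3 * s)) * 0)) := by
    refine (tendsto_pow_atTop_nhds_zero_of_lt_one ?_ ?_).const_mul _
    · apply div_nonneg <;> linarith
    · rw [div_lt_one (by norm_num)]; linarith
  rw [mul_zero] at h2
  have h3 : Tendsto (fun k : ℕ => (2 : ℝ) ^ k) atTop atTop :=
    tendsto_pow_atTop_atTop_of_one_lt (by norm_num)
  obtain ⟨k, hk1, hk2⟩ := ((h2.eventually_lt_const (by norm_num : (0 : ℝ) < 1 / 2)).and
    (h3.eventually_ge_atTop s)).exists
  have hpow : (0 : ℝ) < 2 ^ k := by positivity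
  have hlam1 : s / 2 ^ k ≤ 1 := by rw [div_le_one hpow]; exact hk2
  refine ⟨k, s / 2 ^ k, by positivity, hlam1, ?_⟩
  have h4 : (1 - s / 2 ^ k) ^ (2 ^ k) ≤ Real.exp (-s) := by
    have h5 : 1 - s / 2 ^ k ≤ Real.exp (-(s / 2 ^ k)) := by
      have := Real.add_one_le_exp (-(s / 2 ^ k))
      linarith
    calc (1 - s / 2 ^ k) ^ (2 ^ k) ≤ (Real.exp (-(s / 2 ^ k))) ^ (2 ^ k) :=
        pow_le_pow_left₀ (by linarith) h5 _
      _ = Real.exp (-s) := by
        rw [← Real.exp_nat_mul]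
        congr 1
        push_cast
        field_simp
  have h6 : (2 - δ) ^ k * (3 * (s / 2 ^ k)) = (3 * s) * ((2 - δ) / 2) ^ k := by
    rw [div_pow]; ring
  rw [h6, mul_add]
  calc A * (1 - s / 2 ^ k) ^ 2 ^ k + A * (3 * s * ((2 - δ) / 2) ^ k)
      ≤ A * Real.exp (-s) + A * (3 * s * ((2 - δ) / 2) ^ k) := by gcongr
    _ = A * Real.exp (-s) + A * (3 * s) * ((2 - δ) / 2) ^ k := by ring
    _ < 1 := by linarith

/-- The core: no minimal invariant set of positive diameter. -/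
theorem MinInv.diam_eq_zero [CompleteSpace X] (hX : IsReflexive X) (e : X ≃L[ℝ] Y)
    {δ : ℝ} (hδ0 : 0 < δ) (hδ1 : δ ≤ 1) (hδ : AsympSmooth Y δ)
    {T : X → X} {K : Set X} (h : MinInv T K) : Metric.diam K = 0 := by
  by_contra hne
  have hD : 0 < Metric.diam K := lt_of_le_of_ne Metric.diam_nonneg (Ne.symm hne)
  have hY : IsReflexive Y := hX.of_equiv e
  set L : ℝ := ‖(e : X →L[ℝ] Y)‖ + 1 with hL
  set C : ℝ := ‖(e.symm : Y →L[ℝ] X)‖ + 1 with hC
  have hLpos : 0 < L := by positivity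
  have hCpos : 0 < C := by positivity
  obtain ⟨k, lam, hlam0, hlam1, hlt⟩ := exists_params (mul_pos hCpos hLpos) hδ0 hδ1
  obtain ⟨I, U, B, hB⟩ := exists_program (Y := Y) hY hδ hδ1 h.inv h.nonexp h.bdd hLpos hlam0
    hlam1 hD k
  -- an approximately fixed ultrafilter
  obtain ⟨W, hW⟩ : ∃ W : Ultrafilter X, AF T K W := by
    obtain ⟨R, hR⟩ := exists_resolvent h.inv h.nonexp
    obtain ⟨y, hy⟩ := h.inv.nonempty
    have hE0 : ∀ n : ℕ, (0 : ℝ) < 1 / ((n : ℝ) + 1) := fun n => Nat.one_div_pos_of_nat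
    have hE1 : ∀ n : ℕ, 1 / ((n : ℝ) + 1) ≤ 1 := by
      intro n
      have : (0 : ℝ) ≤ n := Nat.cast_nonneg n
      exact (div_le_one (by positivity)).mpr (by linarith)
    refine ⟨(hyperfilter ℕ).map (fun n : ℕ => R (1 / ((n : ℝ) + 1)) y), ?_, ?_⟩
    · rw [Ultrafilter.coe_map, eventually_map]
      exact Eventually.of_forall fun n => (hR _ (hE0 n) (hE1 n) y hy).1
    · intro η hη
      rw [Ultrafilter.coe_map, eventually_map]
      have hlim : Tendsto (fun n : ℕ => 1 / ((n : ℝ) + 1) * Metric.diam K) atTop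
          (𝓝 (0 * Metric.diam K)) :=
        (tendsto_one_div_add_atTop_nhds_zero_nat (𝕜 := ℝ)).mul_const _
      rw [zero_mul] at hlim
      have h4 : ∀ᶠ n : ℕ in ((hyperfilter ℕ : Ultrafilter ℕ) : Filter ℕ),
          1 / ((n : ℝ) + 1) * Metric.diam K < η :=
        (hlim.eventually_lt_const hη).filter_mono Nat.hyperfilter_le_atTop
      filter_upwards [h4] with n hn
      have h1 := hR _ (hE0 n) (hE1 n) y hy
      rw [resolvent_residual (hE0 n) h1.2]
      refine le_trans ?_ hn.le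
      exact mul_le_mul_of_nonneg_left (h.dist_le_diam (h.inv.maps h1.1) hy) (hE0 n).le
  have hWs : AF T K (iter U W B : Filter X) := hB.af hW
  obtain ⟨hmaps, hlip, -, hosc⟩ := id hB
  -- weak limits in `X`
  obtain ⟨M, hM⟩ := h.bdd.exists_norm_le
  have hf : ∀ κ, ∃ x, WLim (W : Filter X) (fun w => B κ w) x := by
    intro κ
    refine WLim.exists hX W _ M ?_
    filter_upwards [hW.1] with w hw
    exact hM _ (hmaps κ hw)
  choose f hf using hf
  have hfK : ∀ κ, f κ ∈ K := by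
    intro κ
    refine (hf κ).mem h.inv.closed h.inv.convex ?_
    filter_upwards [hW.1] with w hw
    exact hmaps κ hw
  obtain ⟨x₀, hx₀⟩ := WLim.exists hX U f M (Eventually.of_forall fun κ => hM _ (hfK κ))
  have hx₀K : x₀ ∈ K := hx₀.mem h.inv.closed h.inv.convex (Eventually.of_forall hfK)
  -- oscillation bound
  have hosc' : ∀ᶠ κ in (U : Filter I), ‖e (f κ) - e x₀‖ ≤
      (2 - δ) ^ k * (L * (3 * (lam * Metric.diam K))) := by
    refine hosc W hW (fun w => e w) ?_ (fun κ => e (f κ)) ?_ (e x₀) ?_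
    · intro w _ w' _
      rw [← map_sub]
      refine ((e : X →L[ℝ] Y).le_opNorm (w - w')).trans ?_
      gcongr
      rw [hL]; linarith
    · intro κ
      exact (hf κ).map (e : X →L[ℝ] Y)
    · exact hx₀.map (e : X →L[ℝ] Y)
  have hfinal : ∀ᶠ w in (iter U W B : Filter X), ‖w - x₀‖ ≤
      C * (L * ((1 - lam) ^ (2 ^ k) * Metric.diam K) +
        (2 - δ) ^ k * (L * (3 * (lam * Metric.diam K)))) := by
    rw [eventually_iter]
    filter_upwards [hosc'] with κ hκ
    filter_upwards [hW.1] with w hw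
    have h1 : ‖B κ w - f κ‖ ≤ (1 - lam) ^ (2 ^ k) * Metric.diam K := by
      refine ((WLim.const (B κ w)).sub (hf κ)).norm_le ?_
      filter_upwards [hW.1] with w' hw'
      refine (hlip κ w hw w' hw').trans ?_
      exact mul_le_mul_of_nonneg_left (h.dist_le_diam hw hw') (pow_nonneg (by linarith) _)
    have h2 : ‖e (B κ w) - e (f κ)‖ ≤ L * ((1 - lam) ^ (2 ^ k) * Metric.diam K) := by
      rw [← map_sub]
      refine ((e : X →L[ℝ] Y).le_opNorm _).trans ?_
      gcongr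
      rw [hL]; linarith
    have h3 : B κ w - x₀ = e.symm (e (B κ w) - e x₀) := by
      rw [map_sub]; simp
    rw [h3]
    refine ((e.symm : Y →L[ℝ] X).le_opNorm _).trans ?_
    have h4 : ‖e (B κ w) - e x₀‖ ≤ L * ((1 - lam) ^ (2 ^ k) * Metric.diam K) +
        (2 - δ) ^ k * (L * (3 * (lam * Metric.diam K))) := by
      calc ‖e (B κ w) - e x₀‖ = ‖(e (B κ w) - e (f κ)) + (e (f κ) - e x₀)‖ := by
            congr 1; abel
        _ ≤ ‖e (B κ w) - e (f κ)‖ + ‖e (f κ) - e x₀‖ := norm_add_le _ _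
        _ ≤ _ := add_le_add h2 hκ
    have h5 : ‖(e.symm : Y →L[ℝ] X)‖ ≤ C := by rw [hC]; linarith
    exact mul_le_mul h5 h4 (norm_nonneg _) hCpos.le
  have hGK := h.goebel_karlovitz hX (iter U W B) hWs hx₀K hfinal
  have hcalc : C * (L * ((1 - lam) ^ (2 ^ k) * Metric.diam K) +
        (2 - δ) ^ k * (L * (3 * (lam * Metric.diam K)))) =
      (C * L * ((1 - lam) ^ (2 ^ k) + (2 - δ) ^ k * (3 * lam))) * Metric.diam K := by ring
  rw [hcalc] at hGK
  have := mul_lt_mul_of_pos_right hlt hD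
  linarith

/-- A reflexive space with an equivalent asymptotically smooth norm has the FPP. -/
theorem fpp_of_asympSmooth [CompleteSpace X] (hX : IsReflexive X) (e : X ≃L[ℝ] Y)
    {δ : ℝ} (hδ0 : 0 < δ) (hδ : AsympSmooth Y δ) : FPP X := by
  classical
  intro C hne hcl hbd hcv T hT
  wlog hδ1 : δ ≤ 1 generalizing δ
  · refine this (δ := 1) one_pos ?_ le_rfl
    intro x hx
    obtain ⟨s, η, hη, hs⟩ := hδ x hx
    exact ⟨s, η, hη, fun y hy hys => (hs y hy hys).trans (by linarith [not_le.mp hδ1])⟩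
  let S : X → X := fun x => if hx : x ∈ C then (T ⟨x, hx⟩ : X) else x
  have hS : ∀ (x : X) (hx : x ∈ C), S x = T ⟨x, hx⟩ := fun x hx => by simp [S, hx]
  have hInv : Inv S C := ⟨hne, hcl, hcv, fun x hx => by rw [hS x hx]; exact (T ⟨x, hx⟩).2⟩
  have hNE : NonExp S C := by
    intro x hx y hy
    rw [hS x hx, hS y hy]
    exact hT ⟨x, hx⟩ ⟨y, hy⟩
  obtain ⟨M, hM⟩ := hbd.exists_norm_le
  obtain ⟨K, hKC, hK, hmin⟩ := exists_minimal hX hInv hM
  have hKm : MinInv S K := ⟨hK, fun x hx y hy => hNE x (hKC hx) y (hKC hy), hbd.subset hKC, hmin⟩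
  have hdiam := hKm.diam_eq_zero hX e hδ0 hδ1 hδ
  obtain ⟨x, hx⟩ := hK.nonempty
  have h1 : ‖S x - x‖ ≤ 0 := by
    rw [← hdiam]
    exact hKm.dist_le_diam (hK.maps hx) hx
  have h2 : S x = x := by
    have := norm_le_zero_iff.mp h1
    exact sub_eq_zero.mp this
  refine ⟨⟨x, hKC hx⟩, ?_⟩
  rw [hS x (hKC hx)] at h2
  exact Subtype.ext h2

end Vale.Agent.P079
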