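import Mathlib
import Vale.Agent.P079.Weak
import Vale.Agent.P079.Program

/-!
# Uniformly convex complete spaces are reflexive (Milman-Pettis), and asymptotically smooth
-/

open Filter Topology Set

namespace Vale.Agent.P079

universe u v w

variable {Y : Type v} [NormedAddCommGroup Y] [NormedSpace ℝ Y]

/-- A finite-dimensional form of Goldstine's theorem. -/
theorem goldstine_finset (ξ : StrongDual ℝ (StrongDual ℝ Y)) (hξ : ‖ξ‖ ≤ 1)
    (s : Finset (StrongDual ℝ Y)) {η : ℝ} (hη : 0 < η) :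
    ∃ y : Y, ‖y‖ ≤ 1 ∧ ∀ φ ∈ s, |φ y - ξ φ| ≤ η := by
  classical
  let E := (s → ℝ)
  let J : Y →ₗ[ℝ] (s → ℝ) := LinearMap.pi fun φ => ((φ : StrongDual ℝ Y) : Y →ₗ[ℝ] ℝ)
  let A : Set (s → ℝ) := closure (J '' Metric.closedBall (0 : Y) 1)
  have hAc : Convex ℝ A := ((convex_closedBall (0 : Y) 1).linear_image J).closure
  have hmem : (fun φ : s => ξ φ) ∈ A := by
    by_contra hnot
    obtain ⟨f, u, hf1, hf2⟩ := geometric_hahn_banach_closed_point hAc isClosed_closure hnot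
    -- the functional
    let c : s → ℝ := fun φ => f (Pi.single φ 1)
    have hfc : ∀ g : s → ℝ, f g = ∑ φ, g φ * c φ := by
      intro g
      have := LinearMap.pi_apply_eq_sum_univ (f : (s → ℝ) →ₗ[ℝ] ℝ) g
      simp only [ContinuousLinearMap.coe_coe, smul_eq_mul] at this
      rw [this]
      refine Finset.sum_congr rfl fun φ _ => ?_
      congr 2
      ext ψ
      simp [Pi.single_apply, eq_comm]
    let Φ : StrongDual ℝ Y := ∑ φ : s, c φ • (φ : StrongDual ℝ Y)
    have hΦ : ∀ y, Φ y = f (J y) := by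
      intro y
      rw [hfc]
      simp only [Φ, sum_apply, smul_apply, smul_eq_mul]
      refine Finset.sum_congr rfl fun φ _ => ?_
      rw [mul_comm]
      rfl
    have hξΦ : ξ Φ = f (fun φ : s => ξ φ) := by
      rw [hfc]
      simp only [Φ, map_sum, map_smul, smul_eq_mul]
      refine Finset.sum_congr rfl fun φ _ => ?_
      rw [mul_comm]
    have h1 : ∀ y : Y, ‖y‖ ≤ 1 → Φ y < u := by
      intro y hy
      rw [hΦ]
      exact hf1 _ (subset_closure ⟨y, by simpa using hy, rfl⟩)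
    have hu : 0 < u := by
      have := h1 0 (by simp)
      simpa using this
    have hΦn : ‖Φ‖ ≤ u := by
      refine ContinuousLinearMap.opNorm_le_of_unit_norm hu.le ?_
      intro y hy
      rw [Real.norm_eq_abs, abs_le]
      constructor
      · have := h1 (-y) (by rw [norm_neg]; exact hy.le)
        rw [map_neg] at this
        linarith
      · exact (h1 y hy.le).le
    have h2 : ξ Φ ≤ u := by
      calc ξ Φ ≤ ‖ξ Φ‖ := le_abs_self _
        _ ≤ ‖ξ‖ * ‖Φ‖ := ξ.le_opNorm _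
        _ ≤ 1 * u := by gcongr
        _ = u := one_mul _
    rw [hξΦ] at h2
    linarith
  rw [Metric.mem_closure_iff] at hmem
  obtain ⟨b, ⟨y, hy, rfl⟩, hb⟩ := hmem η hη
  refine ⟨y, by simpa using hy, fun φ hφ => ?_⟩
  have h1 := (dist_pi_lt_iff hη).mp hb ⟨φ, hφ⟩
  rw [dist_comm, Real.dist_eq] at h1
  exact h1.le

/-- **Milman-Pettis**. -/
theorem isReflexive_of_uniformConvex [CompleteSpace Y] [UniformConvexSpace Y] : IsReflexive Y := by
  classical
  -- enough for norm one functionals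
  have key : ∀ ξ : StrongDual ℝ (StrongDual ℝ Y), ‖ξ‖ ≤ 1 →
      (∀ η > 0, ∃ φ : StrongDual ℝ Y, ‖φ‖ ≤ 1 ∧ 1 - η < ξ φ) →
      ∃ y, NormedSpace.inclusionInDoubleDual ℝ Y y = ξ := by
    intro ξ hξ hξ2
    let V : Finset (StrongDual ℝ Y) × {η : ℝ // 0 < η} → Set Y := fun p =>
      {y | ‖y‖ ≤ 1 ∧ ∀ φ ∈ p.1, |φ y - ξ φ| ≤ p.2}
    have hV : ∀ p, (V p).Nonempty := by
      intro p
      obtain ⟨y, hy1, hy2⟩ := goldstine_finset ξ hξ p.1 p.2.2
      exact ⟨y, hy1, hy2⟩
    have hVdir : Directed (· ≥ ·) fun p => 𝓟 (V p) := by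
      intro p q
      refine ⟨(p.1 ∪ q.1, ⟨min p.2 q.2, lt_min p.2.2 q.2.2⟩), ?_, ?_⟩
      · refine principal_mono.mpr fun y hy => ⟨hy.1, fun φ hφ => ?_⟩
        exact (hy.2 φ (Finset.mem_union_left _ hφ)).trans (min_le_left _ _)
      · refine principal_mono.mpr fun y hy => ⟨hy.1, fun φ hφ => ?_⟩
        exact (hy.2 φ (Finset.mem_union_right _ hφ)).trans (min_le_right _ _)
    have hne : Nonempty (Finset (StrongDual ℝ Y) × {η : ℝ // 0 < η}) := ⟨(∅, ⟨1, one_pos⟩)⟩
    let F : Filter Y := ⨅ p, 𝓟 (V p)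
    have hF : F.NeBot := iInf_neBot_of_directed' hVdir fun p => principal_neBot_iff.mpr (hV p)
    have hmemF : ∀ p, V p ∈ F := fun p => mem_iInf_of_mem p (mem_principal_self _)
    have hcauchy : Cauchy F := by
      rw [Metric.cauchy_iff]
      refine ⟨hF, fun ε hε => ?_⟩
      obtain ⟨δ, hδ, h⟩ := exists_forall_closed_ball_dist_add_le_two_sub Y hε
      -- choose a functional almost attaining the norm
      obtain ⟨φ, hφ1, hφ2⟩ := hξ2 (δ / 4) (by positivity)
      refine ⟨V ({φ}, ⟨δ / 8, by positivity⟩), hmemF _, ?_⟩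
      intro x hx y hy
      by_contra hxy
      rw [not_lt, dist_eq_norm] at hxy
      have h5 := h hx.1 hy.1 hxy
      have h6 : φ (x + y) ≤ ‖x + y‖ := by
        calc φ (x + y) ≤ ‖φ (x + y)‖ := le_abs_self _
          _ ≤ ‖φ‖ * ‖x + y‖ := φ.le_opNorm _
          _ ≤ 1 * ‖x + y‖ := by gcongr
          _ = ‖x + y‖ := one_mul _
      have h7 := (abs_le.mp (hx.2 φ (Finset.mem_singleton_self φ))).1
      have h8 := (abs_le.mp (hy.2 φ (Finset.mem_singleton_self φ))).1
      simp only [] at h7 h8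
      rw [map_add] at h6
      linarith
    obtain ⟨y, hy⟩ := CompleteSpace.complete hcauchy
    refine ⟨y, ?_⟩
    ext φ
    rw [NormedSpace.dual_def]
    have h1 : Tendsto (fun z => φ z) F (𝓝 (φ y)) := (φ.continuous.tendsto y).mono_left hy
    have h2 : Tendsto (fun z => φ z) F (𝓝 (ξ φ)) := by
      rw [Metric.tendsto_nhds]
      intro ε hε
      have h3 : V ({φ}, ⟨ε / 2, by positivity⟩) ∈ F := hmemF _
      filter_upwards [h3] with z hz
      rw [Real.dist_eq]
      have := hz.2 φ (Finset.mem_singleton_self φ)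
      simp only [] at this
      linarith
    exact tendsto_nhds_unique h1 h2
  intro ξ
  by_cases hξ : ξ = 0
  · exact ⟨0, by rw [hξ, map_zero]⟩
  · have hn : ‖ξ‖ ≠ 0 := fun h0 => hξ (by
      ext φ
      have h9 := ξ.le_opNorm φ
      rw [h0, zero_mul] at h9
      have h10 : ξ φ = 0 := norm_le_zero_iff.mp h9
      rw [h10]; rfl)
    have hpos : 0 < ‖ξ‖ := lt_of_le_of_ne (ContinuousLinearMap.opNorm_nonneg ξ) (Ne.symm hn)
    obtain ⟨y, hy⟩ := key (‖ξ‖⁻¹ • ξ) (by
      refine ContinuousLinearMap.opNorm_le_bound _ zero_le_one fun φ => ?_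
      have h1 : ‖ξ φ‖ ≤ ‖ξ‖ * ‖φ‖ := ξ.le_opNorm φ
      have h2 : (‖ξ‖⁻¹ • ξ) φ = ‖ξ‖⁻¹ * ξ φ := rfl
      rw [h2, norm_mul, norm_inv, Real.norm_of_nonneg hpos.le, one_mul, inv_mul_eq_div,
        div_le_iff₀ hpos, mul_comm]
      exact h1) (by
      intro η hη
      by_contra hcon
      push Not at hcon
      have hle : ‖ξ‖ ≤ max (‖ξ‖ * (1 - η)) 0 := by
        refine ContinuousLinearMap.opNorm_le_of_unit_norm (le_max_right _ _) ?_
        intro φ hφ
        have hb : ∀ ψ : StrongDual ℝ Y, ‖ψ‖ ≤ 1 → ξ ψ ≤ ‖ξ‖ * (1 - η) := by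
          intro ψ hψ
          have h3 : ‖ξ‖⁻¹ * ξ ψ ≤ 1 - η := hcon ψ hψ
          rw [inv_mul_eq_div, div_le_iff₀ hpos] at h3
          linarith
        rw [Real.norm_eq_abs, abs_le]
        have := le_max_left (‖ξ‖ * (1 - η)) 0
        constructor
        · have h3 := hb (-φ) (by rw [norm_neg]; exact hφ.le)
          rw [map_neg] at h3
          linarith
        · exact (hb φ hφ.le).trans this
      rcases le_max_iff.mp hle with h4 | h4
      · nlinarith
      · linarith)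
    refine ⟨‖ξ‖ • y, ?_⟩
    rw [map_smul, hy, smul_smul, mul_inv_cancel₀ hn, one_smul]

/-- Uniformly convex norms are asymptotically smooth. -/
theorem asympSmooth_of_uniformConvex [UniformConvexSpace Y] :
    ∃ δ : ℝ, 0 < δ ∧ AsympSmooth Y δ := by
  obtain ⟨δ, hδ, h⟩ := exists_forall_closed_ball_dist_add_le_two_sub Y
    (by norm_num : (0 : ℝ) < 1 / 4)
  refine ⟨min δ (1 / 2), lt_min hδ (by norm_num), fun x hx => ?_⟩
  by_cases hx2 : ‖x‖ ≤ 1 / 2
  · refine ⟨∅, 1, one_pos, fun y hy _ => ?_⟩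
    have := norm_add_le x y
    have h2 := min_le_right δ (1 / 2)
    linarith
  · push Not at hx2
    obtain ⟨φ, hφ1, hφ2⟩ := exists_dual_vector'' ℝ x
    refine ⟨{φ}, 1 / 4, by norm_num, fun y hy hφ => ?_⟩
    have h3 := (abs_le.mp (hφ φ (Finset.mem_singleton_self φ))).2
    have h4 : 1 / 4 ≤ ‖x - y‖ := by
      calc (1 : ℝ) / 4 ≤ ‖x‖ - φ y := by linarith
        _ = φ (x - y) := by rw [map_sub, hφ2]; rfl
        _ ≤ ‖φ (x - y)‖ := le_abs_self _
        _ ≤ ‖φ‖ * ‖x - y‖ := φ.le_opNorm _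
        _ ≤ 1 * ‖x - y‖ := by gcongr
        _ = ‖x - y‖ := one_mul _
    have h5 := h hx hy h4
    have h6 := min_le_left δ (1 / 2)
    linarith

end Vale.Agent.P079
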